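import Mathlib

namespace Vale.Agent.Lib.P002

/-- A representation of `ℤ^n` in `SL_r(ℂ)`, given by the images `A i` of the standard generators:
pairwise commuting matrices of determinant one. -/
def IsRep {n r : ℕ} (A : Fin n → Matrix (Fin r) (Fin r) ℂ) : Prop :=
  (∀ i, (A i).det = 1) ∧ ∀ i j, A i * A j = A j * A i

/-- Value at the tuple `A` of a polynomial `P` in the `n * r * r` matrix entries. -/
noncomputable def evalAt {n r : ℕ} (A : Fin n → Matrix (Fin r) (Fin r) ℂ)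
    (P : MvPolynomial (Fin n × Fin r × Fin r) ℂ) : ℂ :=
  MvPolynomial.eval (fun t => A t.1 t.2.1 t.2.2) P

/-- The set `Y`: semisimple (= simultaneously diagonalisable) representations of `ℤ^n` whose value
at the generator `i` is conjugate to `c i` for every `i ∈ I`. -/
def InY {n r : ℕ} (I : Finset (Fin n)) (c : Fin n → Matrix (Fin r) (Fin r) ℂ)
    (A : Fin n → Matrix (Fin r) (Fin r) ℂ) : Prop :=
  IsRep A ∧
  (∃ g : GL (Fin r) ℂ, ∀ i, ((g : Matrix (Fin r) (Fin r) ℂ) * A i *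
        ((g⁻¹ : GL (Fin r) ℂ) : Matrix (Fin r) (Fin r) ℂ)).IsDiag) ∧
  ∀ i ∈ I, ∃ h : GL (Fin r) ℂ, (h : Matrix (Fin r) (Fin r) ℂ) * A i *
        ((h⁻¹ : GL (Fin r) ℂ) : Matrix (Fin r) (Fin r) ℂ) = c i

end Vale.Agent.Lib.P002
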