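import Mathlib

namespace Vale.Agent.Lib.P002

open MvPolynomial

variable {σ : Type*} [Fintype σ]

/-- functions on `σ → ℂ` that are Laurent polynomial on the torus -/
def IsLaurent (f : (σ → ℂ) → ℂ) : Prop :=
  ∃ (D : ℕ) (q : MvPolynomial σ ℂ), ∀ w : σ → ℂ, (∀ s, w s ≠ 0) →
    (∏ s, w s) ^ D * f w = eval w q

lemma IsLaurent.const (a : ℂ) : IsLaurent (fun _ : σ → ℂ => a) :=
  ⟨0, C a, fun w _ => by simp⟩

lemma IsLaurent.coord (s : σ) : IsLaurent (fun w : σ → ℂ => w s) :=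
  ⟨0, X s, fun w _ => by simp⟩

lemma IsLaurent.add {f g : (σ → ℂ) → ℂ} (hf : IsLaurent f) (hg : IsLaurent g) :
    IsLaurent (fun w => f w + g w) := by
  obtain ⟨D₁, q₁, h₁⟩ := hf
  obtain ⟨D₂, q₂, h₂⟩ := hg
  refine ⟨D₁ + D₂, (∏ s, X s) ^ D₂ * q₁ + (∏ s, X s) ^ D₁ * q₂, fun w hw => ?_⟩
  simp only [map_add, map_mul, map_pow, map_prod, eval_X, ← h₁ w hw, ← h₂ w hw]
  ring

lemma IsLaurent.mul {f g : (σ → ℂ) → ℂ} (hf : IsLaurent f) (hg : IsLaurent g) :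
    IsLaurent (fun w => f w * g w) := by
  obtain ⟨D₁, q₁, h₁⟩ := hf
  obtain ⟨D₂, q₂, h₂⟩ := hg
  refine ⟨D₁ + D₂, q₁ * q₂, fun w hw => ?_⟩
  simp only [map_mul, ← h₁ w hw, ← h₂ w hw]
  ring

/-- inverse of a partial product -/
lemma IsLaurent.inv_prod [DecidableEq σ] (T : Finset σ) :
    IsLaurent (fun w : σ → ℂ => (∏ s ∈ T, w s)⁻¹) := by
  refine ⟨1, ∏ s ∈ Tᶜ, X s, fun w hw => ?_⟩
  have h1 : (∏ s ∈ T, w s) ≠ 0 := Finset.prod_ne_zero_iff.2 (fun s _ => hw s)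
  simp only [pow_one, map_prod, eval_X]
  rw [← Finset.prod_mul_prod_compl T w]
  field_simp

/-- a Laurent function vanishing on an infinite grid vanishes on the torus -/
lemma IsLaurent.eq_zero {f : (σ → ℂ) → ℂ} (hf : IsLaurent f) (U : Set ℂ) (hU : U.Infinite)
    (hU0 : ∀ z ∈ U, z ≠ 0) (hvan : ∀ w : σ → ℂ, (∀ s, w s ∈ U) → f w = 0)
    (w : σ → ℂ) (hw : ∀ s, w s ≠ 0) : f w = 0 := by
  obtain ⟨D, q, h⟩ := hf
  have hq : q = 0 := by
    apply MvPolynomial.funext_set (fun _ => U) (fun _ => hU)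
    intro x hx
    have hx' : ∀ s, x s ∈ U := fun s => hx s (Set.mem_univ s)
    rw [← h x (fun s => hU0 _ (hx' s)), hvan x hx']
    simp
  have h2 := h w hw
  rw [hq, map_zero] at h2
  have h3 : (∏ s, w s) ^ D ≠ 0 := pow_ne_zero _ (Finset.prod_ne_zero_iff.2 (fun s _ => hw s))
  exact (mul_eq_zero.1 h2).resolve_left h3

end Vale.Agent.Lib.P002
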