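import Mathlib
import Vale.Agent.Lib.P002.Defs
import Vale.Agent.Lib.P002.Laurent

namespace Vale.Agent.Lib.P002

open MvPolynomial Finset

/-- units of the ring of integers of `L` -/
def UL (L : IntermediateField ℚ ℂ) : Set ℂ :=
  {z | z ≠ 0 ∧ z ∈ L ∧ IsIntegral ℤ z ∧ IsIntegral ℤ z⁻¹}

lemma UL.prod {L : IntermediateField ℚ ℂ} {ι : Type*} (T : Finset ι) (w : ι → ℂ)
    (h : ∀ s ∈ T, w s ∈ UL L) : (∏ s ∈ T, w s) ∈ UL L := by
  refine ⟨Finset.prod_ne_zero_iff.2 (fun s hs => (h s hs).1), prod_mem (fun s hs => (h s hs).2.1),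
    IsIntegral.prod _ (fun s hs => (h s hs).2.2.1), ?_⟩
  rw [← Finset.prod_inv_distrib]
  exact IsIntegral.prod _ (fun s hs => (h s hs).2.2.2)

lemma UL.inv {L : IntermediateField ℚ ℂ} {z : ℂ} (h : z ∈ UL L) : z⁻¹ ∈ UL L :=
  ⟨inv_ne_zero h.1, inv_mem h.2.1, h.2.2.2, by rw [inv_inv]; exact h.2.2.1⟩

variable {n r : ℕ}

/-- the `i`-th row of indices -/
def row (i : Fin n) : Finset (Fin n × Fin r) := univ.filter (fun s => s.1 = i)

lemma prod_row (w : Fin n × Fin r → ℂ) (i : Fin n) : ∏ s ∈ row i, w s = ∏ j, w (i, j) := by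
  rw [row, Finset.prod_filter, Fintype.prod_prod_type, Finset.prod_eq_single i]
  · simp
  · intro b _ hb
    simp [hb]
  · simp

/-- diagonal entries -/
noncomputable def zfun (w : Fin n × Fin r → ℂ) (i : Fin n) : Fin (r + 1) → ℂ :=
  Fin.snoc (fun j => w (i, j)) (∏ s ∈ row i, w s)⁻¹

/-- the diagonal tuple -/
noncomputable def Dg (w : Fin n × Fin r → ℂ) (i : Fin n) : Matrix (Fin (r + 1)) (Fin (r + 1)) ℂ :=
  Matrix.diagonal (zfun w i)

lemma Dg_isRep (w : Fin n × Fin r → ℂ) (hw : ∀ s, w s ≠ 0) : IsRep (Dg w) := by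
  constructor
  · intro i
    rw [Dg, Matrix.det_diagonal, Fin.prod_univ_castSucc]
    simp only [zfun, Fin.snoc_castSucc, Fin.snoc_last]
    rw [prod_row]
    exact mul_inv_cancel₀ (Finset.prod_ne_zero_iff.2 (fun j _ => hw _))
  · intro i j
    simp only [Dg, Matrix.diagonal_mul_diagonal]
    congr 1
    ext a
    ring

lemma isLaurent_zfun (i : Fin n) (a : Fin (r + 1)) :
    IsLaurent (fun w : Fin n × Fin r → ℂ => zfun w i a) := by
  induction a using Fin.lastCases with
  | last =>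
    simp only [zfun, Fin.snoc_last]
    exact IsLaurent.inv_prod _
  | cast j =>
    simp only [zfun, Fin.snoc_castSucc]
    exact IsLaurent.coord _

lemma isLaurent_entry (i : Fin n) (a b : Fin (r + 1)) :
    IsLaurent (fun w : Fin n × Fin r → ℂ => Dg w i a b) := by
  by_cases hab : a = b
  · subst hab
    simp only [Dg, Matrix.diagonal_apply_eq]
    exact isLaurent_zfun i a
  · simp only [Dg, Matrix.diagonal_apply_ne _ hab]
    exact IsLaurent.const 0

lemma isLaurent_evalAt (P : MvPolynomial (Fin n × Fin (r + 1) × Fin (r + 1)) ℂ) :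
    IsLaurent (fun w : Fin n × Fin r → ℂ => evalAt (Dg w) P) := by
  induction P using MvPolynomial.induction_on with
  | C a =>
    simp only [evalAt, eval_C]
    exact IsLaurent.const a
  | add p q hp hq =>
    simp only [evalAt, map_add] at hp hq ⊢
    exact hp.add hq
  | mul_X p t hp =>
    simp only [evalAt, map_mul, eval_X] at hp ⊢
    exact hp.mul (isLaurent_entry _ _ _)

lemma Dg_entries_integral (L : IntermediateField ℚ ℂ) (w : Fin n × Fin r → ℂ)
    (hw : ∀ s, w s ∈ UL L) (i : Fin n) (a b : Fin (r + 1)) :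
    Dg w i a b ∈ L ∧ IsIntegral ℤ (Dg w i a b) := by
  by_cases hab : a = b
  · subst hab
    simp only [Dg, Matrix.diagonal_apply_eq]
    induction a using Fin.lastCases with
    | last =>
      simp only [zfun, Fin.snoc_last]
      have := UL.inv (UL.prod (row i) w (fun s _ => hw s))
      exact ⟨this.2.1, this.2.2.1⟩
    | cast j =>
      simp only [zfun, Fin.snoc_castSucc]
      exact ⟨(hw _).2.1, (hw _).2.2.1⟩
  · simp only [Dg, Matrix.diagonal_apply_ne _ hab]
    exact ⟨zero_mem L, isIntegral_zero⟩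

/-- every diagonal tuple of determinant one is of the form `Dg w` -/
lemma exists_eq_Dg (B : Fin n → Matrix (Fin (r + 1)) (Fin (r + 1)) ℂ) (hdiag : ∀ i, (B i).IsDiag)
    (hdet : ∀ i, (B i).det = 1) : ∃ w : Fin n × Fin r → ℂ, (∀ s, w s ≠ 0) ∧ B = Dg w := by
  have hB : ∀ i, B i = Matrix.diagonal (B i).diag := fun i => ((hdiag i).diagonal_diag).symm
  have hprod : ∀ i, ∏ a, (B i).diag a = 1 := by
    intro i
    have := hdet i
    rwa [hB i, Matrix.det_diagonal] at this
  have hne : ∀ i a, (B i).diag a ≠ 0 := by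
    intro i a h0
    have := hprod i
    rw [Finset.prod_eq_zero (mem_univ a) h0] at this
    exact zero_ne_one this
  refine ⟨fun s => (B s.1).diag (Fin.castSucc s.2), fun s => hne _ _, ?_⟩
  funext i
  rw [hB i, Dg]
  congr 1
  funext a
  induction a using Fin.lastCases with
  | last =>
    simp only [zfun, Fin.snoc_last]
    rw [prod_row]
    have := hprod i
    rw [Fin.prod_univ_castSucc] at this
    exact eq_inv_of_mul_eq_one_right this
  | cast j =>
    simp only [zfun, Fin.snoc_castSucc]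

theorem density_of_infinite_units (L : IntermediateField ℚ ℂ) (hL : (UL L).Infinite) (n r : ℕ)
    (P : MvPolynomial (Fin n × Fin r × Fin r) ℂ)
    (hinv : ∀ (A : Fin n → Matrix (Fin r) (Fin r) ℂ) (g : GL (Fin r) ℂ), IsRep A →
      evalAt (fun i => (g : Matrix (Fin r) (Fin r) ℂ) * A i *
        ((g⁻¹ : GL (Fin r) ℂ) : Matrix (Fin r) (Fin r) ℂ)) P = evalAt A P)
    (hvan : ∀ A : Fin n → Matrix (Fin r) (Fin r) ℂ, IsRep A →
      (∀ i a b, A i a b ∈ L ∧ IsIntegral ℤ (A i a b)) → evalAt A P = 0)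
    (A : Fin n → Matrix (Fin r) (Fin r) ℂ) (hA : IsRep A)
    (hss : ∃ g : GL (Fin r) ℂ, ∀ i, ((g : Matrix (Fin r) (Fin r) ℂ) * A i *
        ((g⁻¹ : GL (Fin r) ℂ) : Matrix (Fin r) (Fin r) ℂ)).IsDiag) :
    evalAt A P = 0 := by
  cases r with
  | zero =>
    apply hvan A hA
    intro i a
    exact a.elim0
  | succ r =>
    obtain ⟨g, hg⟩ := hss
    rw [← hinv A g hA]
    have hdet : ∀ i, ((g : Matrix (Fin (r + 1)) (Fin (r + 1)) ℂ) * A i *
        ((g⁻¹ : GL (Fin (r + 1)) ℂ) : Matrix (Fin (r + 1)) (Fin (r + 1)) ℂ)).det = 1 := by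
      intro i
      rw [Matrix.det_mul, Matrix.det_mul, hA.1 i, mul_one, ← Matrix.det_mul]
      simp
    obtain ⟨w, hw, hBw⟩ := exists_eq_Dg _ hg hdet
    rw [hBw]
    apply (isLaurent_evalAt P).eq_zero (UL L) hL (fun z hz => hz.1) _ w hw
    intro w' hw'
    exact hvan _ (Dg_isRep w' (fun s => (hw' s).1)) (Dg_entries_integral L w' hw')

end Vale.Agent.Lib.P002
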