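import Mathlib
import Vale.Agent.Lib.P002.Main

namespace Vale.Agent.Lib.P002

open Finset

/-- `√2` as a complex number -/
noncomputable def s2 : ℂ := ((Real.sqrt 2 : ℝ) : ℂ)

lemma s2_sq : s2 ^ 2 = 2 := by
  rw [s2, ← Complex.ofReal_pow, Real.sq_sqrt (by norm_num)]
  norm_num

lemma s2_integral : IsIntegral ℤ s2 := by
  apply IsIntegral.of_pow (n := 2) (by norm_num)
  rw [s2_sq]
  have h : IsIntegral ℤ ((1 : ℂ) + 1) := isIntegral_one.add isIntegral_one
  rwa [one_add_one_eq_two] at h

/-- the field `ℚ(√2)` inside `ℂ` -/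
noncomputable def Lq : IntermediateField ℚ ℂ := IntermediateField.adjoin ℚ {s2}

lemma s2_mem : s2 ∈ Lq := IntermediateField.mem_adjoin_simple_self ℚ s2

lemma Lq_finite : FiniteDimensional ℚ Lq :=
  IntermediateField.adjoin.finiteDimensional (s2_integral.tower_top)

lemma u_mem : (1 + s2) ∈ UL Lq := by
  have hinv : (1 + s2)⁻¹ = s2 - 1 := by
    apply inv_eq_of_mul_eq_one_right
    have := s2_sq
    linear_combination this
  have hne : (1 + s2) ≠ 0 := by
    intro h
    have h1 : (1 + s2) * (s2 - 1) = 1 := by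
      have := s2_sq
      linear_combination this
    rw [h, zero_mul] at h1
    exact zero_ne_one h1
  refine ⟨hne, add_mem (one_mem _) s2_mem, isIntegral_one.add s2_integral, ?_⟩
  rw [hinv]
  exact s2_integral.sub isIntegral_one

lemma UL_infinite : (UL Lq).Infinite := by
  apply Set.infinite_of_injective_forall_mem (f := fun m : ℕ => (1 + s2) ^ m)
  · intro a b hab
    have h1 : (1 + s2) = (((1 + Real.sqrt 2 : ℝ)) : ℂ) := by
      simp [s2]
    simp only [h1, ← Complex.ofReal_pow] at hab
    have h2 := Complex.ofReal_injective hab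
    have h3 : (0 : ℝ) < Real.sqrt 2 := Real.sqrt_pos.2 (by norm_num)
    exact pow_right_injective₀ (by linarith) (by linarith) h2
  · intro m
    have := UL.prod (L := Lq) (Finset.range m) (fun _ => (1 + s2)) (fun _ _ => u_mem)
    simpa using this

end Vale.Agent.Lib.P002
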