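import Mathlib
import Vale.Agent.Lib.P002.Sqrt2

namespace Vale.Agent.Lib.P002

open MvPolynomial Finset

variable {n r : ℕ}

/-- diagonal entries, fixed for `i ∈ I` -/
noncomputable def zfunI (I : Finset (Fin n)) (d : Fin n → Fin (r + 1) → ℂ)
    (w : Fin n × Fin r → ℂ) (i : Fin n) : Fin (r + 1) → ℂ :=
  if i ∈ I then d i else zfun w i

/-- the diagonal tuple with fixed boundary part -/
noncomputable def DgI (I : Finset (Fin n)) (d : Fin n → Fin (r + 1) → ℂ)
    (w : Fin n × Fin r → ℂ) (i : Fin n) : Matrix (Fin (r + 1)) (Fin (r + 1)) ℂ :=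
  Matrix.diagonal (zfunI I d w i)

lemma DgI_of_mem {I : Finset (Fin n)} {d : Fin n → Fin (r + 1) → ℂ}
    (w : Fin n × Fin r → ℂ) {i : Fin n} (hi : i ∈ I) : DgI I d w i = Matrix.diagonal (d i) := by
  simp [DgI, zfunI, hi]

lemma DgI_of_not_mem {I : Finset (Fin n)} {d : Fin n → Fin (r + 1) → ℂ}
    (w : Fin n × Fin r → ℂ) {i : Fin n} (hi : i ∉ I) : DgI I d w i = Dg w i := by
  simp [DgI, zfunI, hi, Dg]

lemma DgI_isRep (I : Finset (Fin n)) (d : Fin n → Fin (r + 1) → ℂ) (hd : ∀ i ∈ I, ∏ a, d i a = 1)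
    (w : Fin n × Fin r → ℂ) (hw : ∀ s, w s ≠ 0) : IsRep (DgI I d w) := by
  constructor
  · intro i
    by_cases hi : i ∈ I
    · rw [DgI_of_mem w hi, Matrix.det_diagonal, hd i hi]
    · rw [DgI_of_not_mem w hi]
      exact (Dg_isRep w hw).1 i
  · intro i j
    simp only [DgI, Matrix.diagonal_mul_diagonal]
    congr 1
    ext a
    ring

lemma isLaurent_entryI (I : Finset (Fin n)) (d : Fin n → Fin (r + 1) → ℂ) (i : Fin n)
    (a b : Fin (r + 1)) : IsLaurent (fun w : Fin n × Fin r → ℂ => DgI I d w i a b) := by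
  by_cases hi : i ∈ I
  · simp only [DgI_of_mem _ hi]
    exact IsLaurent.const _
  · simp only [DgI_of_not_mem _ hi]
    exact isLaurent_entry i a b

lemma isLaurent_evalAtI (I : Finset (Fin n)) (d : Fin n → Fin (r + 1) → ℂ)
    (P : MvPolynomial (Fin n × Fin (r + 1) × Fin (r + 1)) ℂ) :
    IsLaurent (fun w : Fin n × Fin r → ℂ => evalAt (DgI I d w) P) := by
  induction P using MvPolynomial.induction_on with
  | C a =>
    simp only [evalAt, eval_C]
    exact IsLaurent.const a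
  | add p q hp hq =>
    simp only [evalAt, map_add] at hp hq ⊢
    exact hp.add hq
  | mul_X p t hp =>
    simp only [evalAt, map_mul, eval_X] at hp ⊢
    exact hp.mul (isLaurent_entryI _ _ _ _ _)

lemma DgI_entries_integral (L : IntermediateField ℚ ℂ) (I : Finset (Fin n))
    (d : Fin n → Fin (r + 1) → ℂ) (hd : ∀ i ∈ I, ∀ a, d i a ∈ L ∧ IsIntegral ℤ (d i a))
    (w : Fin n × Fin r → ℂ) (hw : ∀ s, w s ∈ UL L) (i : Fin n) (a b : Fin (r + 1)) :
    DgI I d w i a b ∈ L ∧ IsIntegral ℤ (DgI I d w i a b) := by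
  by_cases hi : i ∈ I
  · rw [DgI_of_mem w hi]
    by_cases hab : a = b
    · subst hab
      simp only [Matrix.diagonal_apply_eq]
      exact hd i hi a
    · simp only [Matrix.diagonal_apply_ne _ hab]
      exact ⟨zero_mem L, isIntegral_zero⟩
  · rw [DgI_of_not_mem w hi]
    exact Dg_entries_integral L w hw i a b

theorem density_boundary (L : IntermediateField ℚ ℂ) (hL : (UL L).Infinite) (n r : ℕ)
    (I : Finset (Fin n)) (c : Fin n → Matrix (Fin r) (Fin r) ℂ)
    (hcL : ∀ i ∈ I, ∀ μ : ℂ, (c i).charpoly.IsRoot μ → μ ∈ L ∧ IsIntegral ℤ μ)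
    (P : MvPolynomial (Fin n × Fin r × Fin r) ℂ)
    (hinv : ∀ (A : Fin n → Matrix (Fin r) (Fin r) ℂ) (g : GL (Fin r) ℂ), IsRep A →
      evalAt (fun i => (g : Matrix (Fin r) (Fin r) ℂ) * A i *
        ((g⁻¹ : GL (Fin r) ℂ) : Matrix (Fin r) (Fin r) ℂ)) P = evalAt A P)
    (hvan : ∀ A : Fin n → Matrix (Fin r) (Fin r) ℂ, InY I c A →
      (∀ i a b, A i a b ∈ L ∧ IsIntegral ℤ (A i a b)) → evalAt A P = 0)
    (A : Fin n → Matrix (Fin r) (Fin r) ℂ) (hA : InY I c A) :
    evalAt A P = 0 := by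
  cases r with
  | zero =>
    apply hvan A hA
    intro i a
    exact a.elim0
  | succ r =>
    obtain ⟨hrep, ⟨g, hg⟩, hbd⟩ := hA
    rw [← hinv A g hrep]
    set B : Fin n → Matrix (Fin (r + 1)) (Fin (r + 1)) ℂ :=
      fun i => (g : Matrix (Fin (r + 1)) (Fin (r + 1)) ℂ) * A i *
        ((g⁻¹ : GL (Fin (r + 1)) ℂ) : Matrix (Fin (r + 1)) (Fin (r + 1)) ℂ) with hB
    have hdet : ∀ i, (B i).det = 1 := by
      intro i
      simp only [hB]
      rw [Matrix.det_mul, Matrix.det_mul, hrep.1 i, mul_one, ← Matrix.det_mul]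
      simp
    obtain ⟨w, hw, hBw⟩ := exists_eq_Dg B hg hdet
    let d : Fin n → Fin (r + 1) → ℂ := fun i => (B i).diag
    have hBd : ∀ i, B i = Matrix.diagonal (d i) := fun i => ((hg i).diagonal_diag).symm
    have hBI : B = DgI I d w := by
      funext i
      by_cases hi : i ∈ I
      · rw [DgI_of_mem w hi]
        exact hBd i
      · rw [DgI_of_not_mem w hi, hBw]
    have hdprod : ∀ i ∈ I, ∏ a, d i a = 1 := by
      intro i _
      have := hdet i
      rwa [hBd i, Matrix.det_diagonal] at this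
    -- conjugacy of the boundary part
    have hconj : ∀ i ∈ I, ∃ h : GL (Fin (r + 1)) ℂ,
        (h : Matrix (Fin (r + 1)) (Fin (r + 1)) ℂ) * Matrix.diagonal (d i) *
        ((h⁻¹ : GL (Fin (r + 1)) ℂ) : Matrix (Fin (r + 1)) (Fin (r + 1)) ℂ) = c i := by
      intro i hi
      obtain ⟨h, hh⟩ := hbd i hi
      refine ⟨h * g⁻¹, ?_⟩
      rw [← hBd i, ← hh]
      simp only [hB, Units.val_mul, mul_inv_rev, inv_inv]
      have h1 : ((g⁻¹ : GL (Fin (r + 1)) ℂ) : Matrix (Fin (r + 1)) (Fin (r + 1)) ℂ) *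
          (g : Matrix (Fin (r + 1)) (Fin (r + 1)) ℂ) = 1 := by
        rw [← Units.val_mul, inv_mul_cancel, Units.val_one]
      calc _ = (h : Matrix (Fin (r + 1)) (Fin (r + 1)) ℂ) *
            (((g⁻¹ : GL (Fin (r + 1)) ℂ) : Matrix (Fin (r + 1)) (Fin (r + 1)) ℂ) *
              (g : Matrix (Fin (r + 1)) (Fin (r + 1)) ℂ)) * A i *
            (((g⁻¹ : GL (Fin (r + 1)) ℂ) : Matrix (Fin (r + 1)) (Fin (r + 1)) ℂ) *
              (g : Matrix (Fin (r + 1)) (Fin (r + 1)) ℂ)) *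
            ((h⁻¹ : GL (Fin (r + 1)) ℂ) : Matrix (Fin (r + 1)) (Fin (r + 1)) ℂ) := by
              simp only [mul_assoc]
        _ = _ := by rw [h1, mul_one, mul_one]
    have hdL : ∀ i ∈ I, ∀ a, d i a ∈ L ∧ IsIntegral ℤ (d i a) := by
      intro i hi a
      apply hcL i hi
      obtain ⟨h, hh⟩ := hconj i hi
      rw [← hh, Matrix.coe_units_inv, Matrix.charpoly_units_conj, Matrix.charpoly_diagonal,
        Polynomial.IsRoot,
        Polynomial.eval_prod]
      apply Finset.prod_eq_zero (mem_univ a)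
      simp
    rw [hBI]
    apply (isLaurent_evalAtI I d P).eq_zero (UL L) hL (fun z hz => hz.1) _ w hw
    intro w' hw'
    apply hvan _ _ (DgI_entries_integral L I d hdL w' hw')
    refine ⟨DgI_isRep I d hdprod w' (fun s => (hw' s).1), ⟨1, fun i => ?_⟩, fun i hi => ?_⟩
    · simp only [Units.val_one, inv_one, one_mul, mul_one, DgI]
      exact Matrix.isDiag_diagonal _
    · rw [DgI_of_mem w' hi]
      exact hconj i hi

end Vale.Agent.Lib.P002
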