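import Mathlib
import Vale.Agent.Lib.P002.Boundary

namespace Vale.Agent.Lib.P002

open Finset

lemma UL_mono {L L' : IntermediateField ℚ ℂ} (h : L ≤ L') : UL L ⊆ UL L' :=
  fun _ hz => ⟨hz.1, h hz.2.1, hz.2.2⟩

variable {n r : ℕ}

/-- the finite set of generators -/
noncomputable def genSet (I : Finset (Fin n)) (c : Fin n → Matrix (Fin r) (Fin r) ℂ) : Finset ℂ :=
  insert s2 (I.biUnion (fun i => (c i).charpoly.roots.toFinset))

/-- the number field generated by `√2` and the boundary eigenvalues -/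
noncomputable def Lc (I : Finset (Fin n)) (c : Fin n → Matrix (Fin r) (Fin r) ℂ) :
    IntermediateField ℚ ℂ :=
  IntermediateField.adjoin ℚ (genSet I c : Set ℂ)

lemma root_mem_genSet (I : Finset (Fin n)) (c : Fin n → Matrix (Fin r) (Fin r) ℂ) {i : Fin n}
    (hi : i ∈ I) {μ : ℂ} (hμ : (c i).charpoly.IsRoot μ) : μ ∈ genSet I c := by
  apply mem_insert_of_mem
  rw [mem_biUnion]
  refine ⟨i, hi, ?_⟩
  rw [Multiset.mem_toFinset, Polynomial.mem_roots (Matrix.charpoly_monic _).ne_zero]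
  exact hμ

lemma integral_of_root_of_unity {μ : ℂ} (h : ∃ k : ℕ, 0 < k ∧ μ ^ k = 1) : IsIntegral ℤ μ := by
  obtain ⟨k, hk, hμ⟩ := h
  apply IsIntegral.of_pow hk
  rw [hμ]
  exact isIntegral_one

lemma Lc_finite (I : Finset (Fin n)) (c : Fin n → Matrix (Fin r) (Fin r) ℂ)
    (hc : ∀ i ∈ I, ∀ μ : ℂ, (c i).charpoly.IsRoot μ → ∃ k : ℕ, 0 < k ∧ μ ^ k = 1) :
    FiniteDimensional ℚ (Lc I c) := by
  apply IntermediateField.finiteDimensional_adjoin
  intro x hx
  rw [Finset.mem_coe, genSet, mem_insert, mem_biUnion] at hx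
  rcases hx with rfl | ⟨i, hi, hx⟩
  · exact s2_integral.tower_top
  · rw [Multiset.mem_toFinset, Polynomial.mem_roots (Matrix.charpoly_monic _).ne_zero] at hx
    exact (integral_of_root_of_unity (hc i hi x hx)).tower_top

lemma Lq_le_Lc (I : Finset (Fin n)) (c : Fin n → Matrix (Fin r) (Fin r) ℂ) : Lq ≤ Lc I c := by
  apply IntermediateField.adjoin.mono
  intro x hx
  rw [Set.mem_singleton_iff] at hx
  subst hx
  exact Finset.mem_coe.2 (mem_insert_self _ _)

lemma UL_Lc_infinite (I : Finset (Fin n)) (c : Fin n → Matrix (Fin r) (Fin r) ℂ) :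
    (UL (Lc I c)).Infinite :=
  UL_infinite.mono (UL_mono (Lq_le_Lc I c))

end Vale.Agent.Lib.P002
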